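import Vale.Agent.Lib.P038.SatK.I.P4_0.H
noncomputable section
namespace Vale.Agent.Lib.P038.SatK.I.P4_0.S0
open Vale.Agent.Lib.P038.Sat Vale.Agent.Lib.P038.SatK Vale.Agent.Lib.P038.SatK.I.P4_0
def b0 : List Nat := [nat_lit 23]
def o0 : List Nat := [nat_lit 0]
theorem ok : segCheck (Gen.gen sh_4_0_0_f (flP 4 0)) W M GT 1 0 1 H [b0] [] [] [o0] = true := by decide +kernel
theorem seg {τ : Nat → Bool} (hgen : ∀ t c, Gen.gen sh_4_0_0_f (flP 4 0) t = some c → holdsG τ c)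
  (hin : ∀ g, g < 0 → HL W (loc GT τ) (getB H g)) :
  ∀ g, 0 ≤ g → g < 1 → HL W (loc GT τ) (getB H g) :=
  segCheck_sound ok hgen hin
end Vale.Agent.Lib.P038.SatK.I.P4_0.S0
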